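import Vale.Agent.P271.B.Loc

/-! P271 B/Bundle: transport of a line bundle to another embedding.

Plan. For `w` on the variety of `s` take `v` with the same local ring, `l` with `v l ≠ 0`, `i` with
`Q i (v) ≠ 0` (degree `d`), and `R` from `exists_den` for the finite set of the `t j / t l` and
`t l ^ d / Q i (t)`. By `ne_of_chart_mem`, `ne_of_inv_mem` the pair `(R, i)` is good: for all `w', v'` on the
varieties with equal local rings, `R w' ≠ 0` gives `Q i v' ≠ 0`. The ideal spanned by the forms `R` of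
good pairs is spanned by a finite subset (Noetherian, `Submodule.fg_span_iff_fg_span_finset_subset`);
enumerate it by `Fin r` (`Finset.equivFin`) and choose `i` for each. `formStalk_congr`:
`Submodule.span_le`, `topForm d (u * e) φ = u • topForm d e φ`. Auxiliary names start with `bb_`. -/

open Set MvPolynomial

noncomputable section

namespace Vale.Agent.P271

variable {K : Type} [Field K] [Algebra ℂ K] {N N' : ℕ} {t : Fin (N + 1) → K} {s : Fin (N' + 1) → K}
  {l : Fin (N + 1)} {v : Fin (N + 1) → ℂ}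

theorem bb_good (L : LineBundle t) (h : SameVariety t s) {w : Fin (N' + 1) → ℂ} (hw : OnX s w) :
    ∃ (R : MvPolynomial (Fin (N' + 1)) ℂ) (i : Fin L.r), (∃ d, R.IsHomogeneous d) ∧ eval w R ≠ 0 ∧
      ∀ w' v', OnX s w' → OnX t v' → locRing t v' = locRing s w' → eval w' R ≠ 0 →
        eval v' (L.Q i) ≠ 0 := by
  classical
  obtain ⟨v, hv, e⟩ := h.2.2 w hw
  obtain ⟨l, hl⟩ := hv.exists_ne
  obtain ⟨i, hi⟩ := L.cover v hv
  obtain ⟨d, hd⟩ := L.homog i
  obtain ⟨d', R, h1, h2, h3⟩ := exists_den hw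
    (insert (t l ^ d / aeval t (L.Q i)) (Finset.univ.image fun j => t j / t l)) (fun a ha => by
      rw [← e]
      rcases Finset.mem_insert.1 ha with rfl | ha
      · have := div_mem_locRing hv (isHomogeneous_X_pow l d) hd hi
        rwa [map_pow, aeval_X] at this
      · obtain ⟨j, -, rfl⟩ := Finset.mem_image.1 ha
        exact t_div_mem hv hl j)
  refine ⟨R, i, ⟨d', h1⟩, h2, fun w' v' _ hv' e' h0 => ?_⟩
  have h4 := h3 w' h0
  rw [← e'] at h4
  exact ne_of_inv_mem hv' (ne_of_chart_mem hv' (hv.t_ne hl) fun j => h4 _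
    (Finset.mem_insert_of_mem (Finset.mem_image_of_mem _ (Finset.mem_univ j)))) hd
    (hv.aeval_ne hd hi) (h4 _ (Finset.mem_insert_self _ _))

theorem exists_bundle (L : LineBundle t) (h : SameVariety t s) :
    ∃ (L' : LineBundle s) (f : Fin L'.r → Fin L.r), (∀ k, L'.e k = L.e (f k)) ∧
      ∀ k w v, OnX s w → OnX t v → locRing t v = locRing s w → eval w (L'.Q k) ≠ 0 →
        eval v (L.Q (f k)) ≠ 0 := by
  classical
  let A : Set (MvPolynomial (Fin (N' + 1)) ℂ) := {R | (∃ d, R.IsHomogeneous d) ∧ ∃ i, ∀ w v,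
    OnX s w → OnX t v → locRing t v = locRing s w → eval w R ≠ 0 → eval v (L.Q i) ≠ 0}
  obtain ⟨F, hF, e⟩ := (Submodule.fg_span_iff_fg_span_finset_subset A).1
    (IsNoetherian.noetherian (Ideal.span A))
  have hA : ∀ k : Fin F.card, (F.equivFin.symm k).1 ∈ A := fun k => hF (F.equivFin.symm k).2
  choose f hf using fun k => (hA k).2
  refine ⟨⟨F.card, fun k => (F.equivFin.symm k).1, fun k => (hA k).1, fun w hw => ?_,
    fun k => L.e (f k), fun k => L.e_ne _, fun w hw i j hi hj => ?_⟩, f, fun _ => rfl, hf⟩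
  · obtain ⟨R, i, h1, h2, h3⟩ := bb_good L h hw
    by_contra! hc
    have hR : R ∈ Submodule.span (MvPolynomial (Fin (N' + 1)) ℂ)
        (F : Set (MvPolynomial (Fin (N' + 1)) ℂ)) := e ▸ Submodule.subset_span ⟨h1, i, h3⟩
    refine h2 ((Submodule.span_le (p := RingHom.ker (eval w))).2 (fun x hx => ?_) hR)
    have := hc (F.equivFin ⟨x, hx⟩)
    rwa [Equiv.symm_apply_apply] at this
  · obtain ⟨v, hv, e1⟩ := h.2.2 w hw
    rw [← e1]
    exact L.compat v hv _ _ (hf i w v hw hv e1 hi) (hf j w v hw hv e1 hj)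

theorem bb_le {M : Type} [AddCommGroup M] [Module K M] (d : K → M) {O : Subalgebra ℂ K}
    (n m : ℕ) {a b : K} (hb : b ≠ 0) (h1 : a / b ∈ O) :
    formStalk d O n (a ^ m) ⊆ formStalk d O n (b ^ m) := by
  refine Submodule.span_le.2 ?_
  rintro _ ⟨φ, hφ, rfl⟩
  have e : topForm d (a ^ m) φ = (⟨(a / b) ^ m, O.pow_mem h1 m⟩ : O) • topForm d (b ^ m) φ := by
    change _ = (a / b) ^ m • topForm d (b ^ m) φ
    rw [topForm, topForm, smul_smul, ← mul_pow, div_mul_cancel₀ _ hb]
  rw [e]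
  exact Submodule.smul_mem _ _ (Submodule.subset_span ⟨φ, hφ, rfl⟩)

theorem formStalk_congr {M : Type} [AddCommGroup M] [Module K M] (d : K → M) {O : Subalgebra ℂ K}
    (n m : ℕ) {a b : K} (ha : a ≠ 0) (hb : b ≠ 0) (h1 : a / b ∈ O) (h2 : b / a ∈ O) :
    formStalk d O n (a ^ m) = formStalk d O n (b ^ m) :=
  (bb_le d n m hb h1).antisymm (bb_le d n m ha h2)

end Vale.Agent.P271
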