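import Vale.Agent.P271.B.Smooth
import Vale.Agent.P271.B.Bundle
import Vale.Agent.P271.S.Final

/-! P271 B/Final: the theorem for an arbitrary embedding. -/

open Set MvPolynomial

noncomputable section

namespace Vale.Agent.P271

variable {K : Type} [Field K] [Algebra ℂ K] {N N' : ℕ} {t : Fin (N + 1) → K} {s : Fin (N' + 1) → K}
  {l : Fin (N + 1)} {v : Fin (N + 1) → ℂ}

theorem fujitaB {n : ℕ} (hn : 1 ≤ n) (hK : IsFunctionField t) (hX : IsSmoothOfDim t n)
    (L : LineBundle t) (hL : L.IsAmple) {m : ℕ} (hm : n + 1 ≤ m) :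
    L.AdjointFree (KaehlerDifferential.D ℂ K) n m := by
  obtain ⟨p, N', s, hp, hs, hgen⟩ := hL
  obtain ⟨L', f, he, hf⟩ := exists_bundle L hs
  have hL' : L'.PowIsHyperplane p := ⟨1, one_ne_zero, fun w hw k hk => by
    obtain ⟨v, hv, e⟩ := hs.2.2 w hw
    have h := hgen v hv (f k) (hf k w v hw hv e hk)
    rw [e, ← he] at h
    simp only [one_mul]
    exact SetLike.coe_injective h⟩
  have key := (fujita K N' n s hn hs.1 (smooth_transfer hK hX hs) L' p hp hL' m hm).adjointFree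
  have tr : ∀ v, OnX t v → ∀ i, eval v (L.Q i) ≠ 0 → ∃ w k, OnX s w ∧ eval w (L'.Q k) ≠ 0 ∧
      locRing s w = locRing t v ∧
      formStalk (KaehlerDifferential.D ℂ K) (locRing s w) n (L'.e k ^ m) =
        formStalk (KaehlerDifferential.D ℂ K) (locRing t v) n (L.e i ^ m) := fun v hv i hi => by
    obtain ⟨w, hw, e⟩ := hs.2.1 v hv
    obtain ⟨k, hk⟩ := L'.cover w hw
    have h := hf k w v hw hv e.symm hk
    exact ⟨w, k, hw, hk, e, by
      rw [e, he]
      exact formStalk_congr _ n m (L.e_ne _) (L.e_ne _) (L.compat v hv _ _ h hi)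
        (L.compat v hv _ _ hi h)⟩
  intro v hv i hi
  obtain ⟨w, k, hw, hk, e, e'⟩ := tr v hv i hi
  obtain ⟨η, h1, h2⟩ := key w hw k hk
  refine ⟨η, fun v' hv' j hj => ?_, by rw [← e', ← h2, e]⟩
  obtain ⟨w', k', hw', hk', -, e''⟩ := tr v' hv' j hj
  exact e'' ▸ h1 w' hw' k' hk'

end Vale.Agent.P271
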