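import Vale.Agent.P271.StmtB
import Vale.Agent.P271.S.Pts
import Vale.Agent.P271.S.SD

/-! P271 B/Loc: local rings, residue maps, point derivations.

Plan. Tools in S/Reg, S/Pts: `mem_locRing`, `OnX.exists_pt`, `chart_aeval`, `pt_aeval`, `chart_exists`,
`div_mem_locRing`, `chart_le_locRing`. `ne_of_inv_mem`: write `t l ^ d / P t * c = b`, `φ c ≠ 0`; then
`c = b * aeval (chartX t l) P`; apply `φ`. `ne_of_chart_mem`: pick `l'` with `v l' ≠ 0` and use the first
lemma with `P = X l`, `d = 1`. `exists_den`: for one element write `a * c = b` and homogenise `b, c`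
(degrees `d, e`): `a * aeval t (C * X l ^ d) = aeval t (B * X l ^ e)`; take the product of the
denominators. `exists_res`, `exists_der`: choose `b, c` for each `a`; `res a = φ b / φ c`,
`δ' a = (δ b - res a * δ c) / φ c`; independence of the choice from `b * c' = b' * c` (characterise
`res a`, `δ' a` by `res a * φ c = φ b`, `δ' a * φ c + res a * δ c = δ b` for all representations).
`res_unique`: `a - χ a` is killed by `χ`, so it is not invertible in the ring, so `res` kills it.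
Auxiliary names start with `bl_`. -/

open Set MvPolynomial

noncomputable section

namespace Vale.Agent.P271

variable {K : Type} [Field K] [Algebra ℂ K] {N N' : ℕ} {t : Fin (N + 1) → K} {s : Fin (N' + 1) → K}
  {l : Fin (N + 1)} {v : Fin (N + 1) → ℂ}

theorem ne_of_inv_mem (hv : OnX t v) (hl : v l ≠ 0) {P : MvPolynomial (Fin (N + 1)) ℂ} {d : ℕ}
    (hP : P.IsHomogeneous d) (h0 : aeval t P ≠ 0) (h : t l ^ d / aeval t P ∈ locRing t v) :
    eval v P ≠ 0 := by
  have ht := hv.ne hl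
  obtain ⟨φ, hφ⟩ := hv.exists_pt hl
  obtain ⟨b, c, h1, h2⟩ := (mem_locRing ht hl hφ).1 h
  have h3 : c = b * aeval (chartX t l) P := Subtype.ext (by
    rw [Subalgebra.coe_mul, ← h2, coe_aeval_homog hP]
    field_simp)
  rw [h3, map_mul] at h1
  rw [← pt_aeval hl hφ hP]
  exact mul_ne_zero (right_ne_zero_of_mul h1) (pow_ne_zero _ hl)

theorem ne_of_chart_mem (hv : OnX t v) (h0 : t l ≠ 0) (h : ∀ j, t j / t l ∈ locRing t v) :
    v l ≠ 0 := by
  obtain ⟨j, hj⟩ := hv.exists_ne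
  simpa using ne_of_inv_mem hv hj (isHomogeneous_X ℂ l) (by simpa using h0) (by simpa using h j)

theorem bl_den (hv : OnX t v) {a : K} (ha : a ∈ locRing t v) :
    ∃ (d : ℕ) (R : MvPolynomial (Fin (N + 1)) ℂ), R.IsHomogeneous d ∧ eval v R ≠ 0 ∧
      ∀ w, eval w R ≠ 0 → a ∈ locRing t w := by
  obtain ⟨l, hl⟩ := hv.exists_ne
  have ht := hv.ne hl
  obtain ⟨φ, hφ⟩ := hv.exists_pt hl
  obtain ⟨b, c, h1, h2⟩ := (mem_locRing ht hl hφ).1 ha
  obtain ⟨d, B, hB, rfl⟩ := chart_exists ht b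
  obtain ⟨e, C, hC, rfl⟩ := chart_exists ht c
  have h3 := hC.mul (isHomogeneous_X_pow l d)
  refine ⟨_, _, h3, ?_, fun w hw => Algebra.subset_adjoin ⟨_, B * X l ^ e, _,
    add_comm d e ▸ hB.mul (isHomogeneous_X_pow l e), h3, hw, ?_⟩⟩
  · rw [map_mul, map_pow, eval_X, ← pt_aeval hl hφ hC]
    exact mul_ne_zero (mul_ne_zero h1 (pow_ne_zero _ hl)) (pow_ne_zero _ hl)
  · simp only [map_mul, map_pow, aeval_X]
    rw [← chart_aeval ht hB, ← chart_aeval ht hC, ← h2]
    ring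

theorem exists_den (hv : OnX t v) (F : Finset K) (hF : ∀ a ∈ F, a ∈ locRing t v) :
    ∃ (d : ℕ) (R : MvPolynomial (Fin (N + 1)) ℂ), R.IsHomogeneous d ∧ eval v R ≠ 0 ∧
      ∀ w, eval w R ≠ 0 → ∀ a ∈ F, a ∈ locRing t w := by
  classical
  induction F using Finset.induction_on with
  | empty => exact ⟨0, 1, isHomogeneous_one _ _, by simp, by simp⟩
  | insert a F _ ih =>
    obtain ⟨d, R, h1, h2, h3⟩ := ih fun b hb => hF b (Finset.mem_insert_of_mem hb)
    obtain ⟨d', R', h1', h2', h3'⟩ := bl_den hv (hF a (Finset.mem_insert_self _ _))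
    refine ⟨_, R * R', h1.mul h1', by rw [map_mul]; exact mul_ne_zero h2 h2', fun w hw => ?_⟩
    rw [map_mul, mul_ne_zero_iff] at hw
    exact Finset.forall_mem_insert _ _ _ |>.2 ⟨h3' w hw.2, h3 w hw.1⟩

theorem bl_cross {A : Subalgebra ℂ K} {a : K} {b c b' c' : A} (h : a * c = b) (h' : a * c' = b') :
    b * c' = b' * c := Subtype.ext (by
  rw [Subalgebra.coe_mul, Subalgebra.coe_mul, ← h, ← h']
  ring)

theorem bl_res {A O : Subalgebra ℂ K} (φ : A →ₐ[ℂ] ℂ)
    (hO : ∀ a : O, ∃ b c : A, φ c ≠ 0 ∧ (a : K) * c = b) :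
    ∃ res : O →ₐ[ℂ] ℂ, ∀ (a : O) (b c : A), (a : K) * c = b → res a * φ c = φ b := by
  choose b c h1 h2 using hO
  obtain ⟨r, hr⟩ : ∃ r : O → ℂ, ∀ (a : O) (b' c' : A), (a : K) * c' = b' → r a * φ c' = φ b' :=
    ⟨fun a => φ (b a) / φ (c a), fun a b' c' h => by
      rw [div_mul_eq_mul_div, ← map_mul, bl_cross (h2 a) h, map_mul,
        mul_div_cancel_right₀ _ (h1 a)]⟩
  have k := fun a => hr a _ _ (h2 a)
  refine ⟨⟨⟨⟨⟨r, ?_⟩, fun a a' => ?_⟩, ?_, fun a a' => ?_⟩, fun z => ?_⟩, hr⟩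
  · simpa using hr 1 1 1 (by simp)
  · have := hr (a * a') (b a * b a') (c a * c a') (by
      push_cast
      rw [← h2, ← h2]
      ring)
    rw [map_mul, map_mul, ← k, ← k] at this
    exact mul_right_cancel₀ (mul_ne_zero (h1 a) (h1 a')) (this.trans (by ring))
  · simpa using hr 0 0 1 (by simp)
  · have := hr (a + a') (b a * c a' + b a' * c a) (c a * c a') (by
      push_cast
      rw [← h2, ← h2]
      ring)
    rw [map_add, map_mul, map_mul, map_mul, ← k, ← k] at this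
    exact mul_right_cancel₀ (mul_ne_zero (h1 a) (h1 a')) (this.trans (by ring))
  · simpa using hr (algebraMap ℂ O z) (algebraMap ℂ A z) 1 (by simp)

theorem exists_res (hv : OnX t v) (hl : v l ≠ 0) {φ : chartRing t l →ₐ[ℂ] ℂ}
    (hφ : ∀ i, φ (chartX t l i) = v i / v l) :
    ∃ res : locRing t v →ₐ[ℂ] ℂ, (∀ a : chartRing t l, res ⟨a, chart_le_locRing hv hl a.2⟩ = φ a) ∧
      ∀ a, res a ≠ 0 → (a : K) ≠ 0 ∧ (a : K)⁻¹ ∈ locRing t v := by
  have ht := hv.ne hl
  obtain ⟨res, h⟩ := bl_res (O := locRing t v) φ fun a => (mem_locRing ht hl hφ).1 a.2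
  refine ⟨res, fun a => by simpa using h ⟨a, chart_le_locRing hv hl a.2⟩ a 1 (by simp),
    fun a ha => ?_⟩
  obtain ⟨b, c, h1, h2⟩ := (mem_locRing ht hl hφ).1 a.2
  have h3 : φ b ≠ 0 := h a b c h2 ▸ mul_ne_zero ha h1
  have h4 : (a : K) ≠ 0 := fun e => h3 (by
    rw [e, zero_mul] at h2
    rw [show b = 0 from Subtype.ext h2.symm, map_zero])
  exact ⟨h4, (mem_locRing ht hl hφ).2 ⟨c, b, h3, by rw [← h2, inv_mul_cancel_left₀ h4]⟩⟩

theorem res_unique {O : Subalgebra ℂ K} {res χ : O →ₐ[ℂ] ℂ}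
    (h : ∀ a, res a ≠ 0 → (a : K) ≠ 0 ∧ (a : K)⁻¹ ∈ O) : χ = res := by
  refine AlgHom.ext fun a => by_contra fun hn => ?_
  obtain ⟨h1, h2⟩ := h (a - algebraMap ℂ O (χ a)) (by simpa [sub_eq_zero] using Ne.symm hn)
  have h3 : (a - algebraMap ℂ O (χ a)) * ⟨_, h2⟩ = 1 := Subtype.ext (mul_inv_cancel₀ h1)
  simpa using congrArg χ h3

theorem bl_mul {A O : Subalgebra ℂ K} (h : A ≤ O) {a : O} {b c : A} (e : (a : K) * c = b) :
    a * ⟨c, h c.2⟩ = ⟨b, h b.2⟩ := Subtype.ext e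

theorem exists_der (hv : OnX t v) (hl : v l ≠ 0) {φ : chartRing t l →ₐ[ℂ] ℂ}
    (hφ : ∀ i, φ (chartX t l i) = v i / v l) {res : locRing t v →ₐ[ℂ] ℂ}
    (hres : ∀ a : chartRing t l, res ⟨a, chart_le_locRing hv hl a.2⟩ = φ a)
    {δ : chartRing t l → ℂ} (hδ : IsDer φ δ) :
    ∃ δ' : locRing t v → ℂ, IsDer res δ' ∧
      ∀ a : chartRing t l, δ' ⟨a, chart_le_locRing hv hl a.2⟩ = δ a := by
  choose b c h1 h2 using fun a : locRing t v => (mem_locRing (hv.ne hl) hl hφ).1 a.2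
  have hr : ∀ (a : locRing t v) (b' c' : chartRing t l), (a : K) * c' = b' →
      res a * φ c' = φ b' := fun a b' c' h => by
    rw [← hres, ← hres, ← map_mul, bl_mul (chart_le_locRing hv hl) h]
  have hm : ∀ x y, δ (x * y) = φ x * δ y + φ y * δ x := hδ.mul
  obtain ⟨D, hD⟩ : ∃ D : locRing t v → ℂ, ∀ (a : locRing t v) (b' c' : chartRing t l),
      (a : K) * c' = b' → D a * φ c' + res a * δ c' = δ b' :=
    ⟨fun a => (δ (b a) - res a * δ (c a)) / φ (c a), fun a b' c' h => by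
      have e := congrArg δ (bl_cross (h2 a) h)
      have := h1 a
      rw [hm, hm, ← hr a _ _ h, ← hr a _ _ (h2 a)] at e
      field_simp
      linear_combination e⟩
  have d1 : δ 1 = 0 := by simpa using hδ.alg 1
  refine ⟨D, ⟨fun a a' => ?_, fun a a' => ?_, fun z => ?_⟩, fun a => ?_⟩
  · have e1 := hD (a + a') (b a * c a' + b a' * c a) (c a * c a') (by
      push_cast
      rw [← h2, ← h2]
      ring)
    have e2 := hD a (b a * c a') (c a * c a') (by
      push_cast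
      rw [← h2]
      ring)
    have e3 := hD a' (b a' * c a) (c a * c a') (by
      push_cast
      rw [← h2]
      ring)
    rw [hδ.add, map_add] at e1
    refine mul_right_cancel₀ (b := φ (c a * c a')) ?_ (by linear_combination e1 - e2 - e3)
    rw [map_mul]
    exact mul_ne_zero (h1 a) (h1 a')
  · have e1 := hD (a * a') (b a * b a') (c a * c a') (by
      push_cast
      rw [← h2, ← h2]
      ring)
    rw [hm, hm, map_mul, map_mul, ← hr a _ _ (h2 a), ← hr a' _ _ (h2 a'), ← hD a _ _ (h2 a),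
      ← hD a' _ _ (h2 a')] at e1
    refine mul_right_cancel₀ (mul_ne_zero (h1 a) (h1 a')) ?_
    simp only [smul_eq_mul]
    linear_combination e1
  · simpa [d1, hδ.alg] using hD (algebraMap ℂ _ z) (algebraMap ℂ _ z) 1 (by simp)
  · simpa [d1] using hD ⟨a, chart_le_locRing hv hl a.2⟩ a 1 (by simp)

theorem der_eq_zero (hv : OnX t v) (hl : v l ≠ 0) {φ : chartRing t l →ₐ[ℂ] ℂ}
    (hφ : ∀ i, φ (chartX t l i) = v i / v l) {res : locRing t v →ₐ[ℂ] ℂ}
    (hres : ∀ a : chartRing t l, res ⟨a, chart_le_locRing hv hl a.2⟩ = φ a)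
    {δ : locRing t v → ℂ} (hδ : IsDer res δ)
    (h0 : ∀ a : chartRing t l, δ ⟨a, chart_le_locRing hv hl a.2⟩ = 0) (a : locRing t v) :
    δ a = 0 := by
  obtain ⟨b, c, h1, h2⟩ := (mem_locRing (hv.ne hl) hl hφ).1 a.2
  have h3 := hδ.mul a ⟨c, chart_le_locRing hv hl c.2⟩
  rw [bl_mul (chart_le_locRing hv hl) h2, h0, h0, hres, smul_zero, zero_add, smul_eq_mul] at h3
  exact (mul_eq_zero.1 h3.symm).resolve_left h1

end Vale.Agent.P271
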