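import Vale.Agent.P271.B.Loc
import Vale.Agent.P271.S.Chart

/-! P271 B/Smooth: the Jacobian criterion does not depend on the embedding.

Plan. `trdeg_le`: `K` is algebraic over the subalgebra generated by the `N` elements `t i / t l`,
`i ≠ l` (`chart_frac`, `chartX_self`; `Algebra.IsAlgebraic.trdeg_le_cardinalMk` or
`chart_trdeg` in S/Alg). `tangent_der`: `δ (aeval x P) = ∑ i, ξ i * eval w (pderiv i P)` is well defined:
if `aeval x P = 0`, homogenise (`exists_homog`: `P' - P` is a multiple of `X l - 1`, whose gradient at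
`w` is a multiple of `e l`). `grad_rank`: `O = locRing s w = locRing t v`; take the chart of `t` at `v`
(`exists_chart` with `g = 1`, giving `DRel y h`, `φ h ≠ 0`). Let `T` be the space of `ξ` as in
`tangent_der`. The map `T → (Fin n → ℂ)`, `ξ ↦ δ' (y j)` (`exists_der`; linear by the uniqueness
`der_eq_zero`, or write `y j = b / c` in the chart of `s` and use the explicit formula) is injective by
`DRel`, `res_unique`, `der_eq_zero`. So `finrank T ≤ n`; `T` is the annihilator of `G ⊔ span {e l}`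
(`Subspace.finrank_add_finrank_dualAnnihilator_eq` or the kernel of a matrix), so
`N' + 1 ≤ n + finrank G + 1`. `smooth_transfer`: normalise `w` to `w / w l` (`locRing_div`; gradients of
forms scale), extract an independent subfamily of the spanning set
(`exists_linearIndependent`, `finrank_span_set_eq_card`, `exists_linearIndependent_of_le_finrank`
style), restrict it to `Fin (N' - n)`. Auxiliary names start with `bs_`. -/

open Set MvPolynomial

noncomputable section

namespace Vale.Agent.P271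

variable {K : Type} [Field K] [Algebra ℂ K] {N N' : ℕ} {t : Fin (N + 1) → K} {s : Fin (N' + 1) → K}
  {l : Fin (N + 1)} {v : Fin (N + 1) → ℂ}

theorem trdeg_le (ht : IsFunctionField t) {n : ℕ} (h : Algebra.trdeg ℂ K = n) : n ≤ N := by
  obtain ⟨l, hl⟩ : ∃ l, t l ≠ 0 := Function.ne_iff.1 ht.1
  have h1 : Function.Surjective (aeval (fun i => chartX t l (l.succAbove i)) :
      MvPolynomial (Fin N) ℂ →ₐ[ℂ] chartRing t l) := by
    rw [← AlgHom.range_eq_top, ← Algebra.adjoin_range_eq_range_aeval, eq_top_iff, ← chart_gen]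
    refine Algebra.adjoin_le ?_
    rintro _ ⟨i, rfl⟩
    rcases Fin.eq_self_or_eq_succAbove l i with rfl | ⟨j, rfl⟩
    · rw [chartX_self hl]
      exact one_mem _
    · exact Algebra.subset_adjoin ⟨j, rfl⟩
  have h2 := trdeg_le_of_surjective _ h1
  rw [chart_trdeg ht hl, h, MvPolynomial.trdeg_of_isDomain] at h2
  simpa using h2

/-- The gradients at `v` of the forms vanishing on the variety. -/
def gradSet (t : Fin (N + 1) → K) (v : Fin (N + 1) → ℂ) : Set (Fin (N + 1) → ℂ) :=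
  {g | ∃ (d : ℕ) (P : MvPolynomial (Fin (N + 1)) ℂ), P.IsHomogeneous d ∧ aeval t P = 0 ∧
    g = fun j => eval v (pderiv j P)}

theorem bs_comp {A A' R : Type} [CommRing A] [Algebra ℂ A] [CommRing A'] [Algebra ℂ A'] [CommRing R]
    [Algebra ℂ R] {ψ : A →ₐ[ℂ] R} {δ : A → R} (h : IsDer ψ δ) (f : A' →ₐ[ℂ] A) :
    IsDer (ψ.comp f) fun a => δ (f a) :=
  ⟨fun a b => by rw [map_add, h.add], fun a b => by rw [map_mul, h.mul]; rfl,
    fun c => by rw [f.commutes, h.alg]⟩

theorem bs_snd : IsDer (TrivSqZeroExt.fstHom ℂ ℂ ℂ) (TrivSqZeroExt.snd : DualNumber ℂ → ℂ) :=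
  ⟨TrivSqZeroExt.snd_add, fun a b => by simp [mul_comm], fun c => by
    simp [TrivSqZeroExt.algebraMap_eq_inl]⟩

def bs_pt {M : ℕ} (w ξ : Fin M → ℂ) (i : Fin M) : DualNumber ℂ := (w i, ξ i)

theorem bs_fst {M : ℕ} (w ξ : Fin M → ℂ) (P : MvPolynomial (Fin M) ℂ) :
    TrivSqZeroExt.fstHom ℂ ℂ ℂ (aeval (bs_pt w ξ) P) = eval w P := by
  rw [← AlgHom.comp_apply, comp_aeval, aeval_eq_eval]
  rfl

theorem bs_dual {M : ℕ} (w ξ : Fin M → ℂ) (P : MvPolynomial (Fin M) ℂ) :
    TrivSqZeroExt.snd (aeval (bs_pt w ξ) P) =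
      ∑ j, ξ j * eval w (pderiv j P) := by
  rw [bs_snd.aeval]
  exact Finset.sum_congr rfl fun j _ => by rw [bs_fst, smul_eq_mul, mul_comm]; rfl

theorem tangent_der (h0 : t l ≠ 0) (φ : chartRing t l →ₐ[ℂ] ℂ) {ξ : Fin (N + 1) → ℂ} (hl : ξ l = 0)
    (hξ : ∀ g ∈ gradSet t fun i => φ (chartX t l i), ∑ j, ξ j * g j = 0) :
    ∃ δ : chartRing t l → ℂ, IsDer φ δ ∧ ∀ P : MvPolynomial (Fin (N + 1)) ℂ,
      δ (aeval (chartX t l) P) = ∑ j, ξ j * eval (fun i => φ (chartX t l i)) (pderiv j P) := by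
  have hk : RingHom.ker (aeval (chartX t l) : MvPolynomial (Fin (N + 1)) ℂ →ₐ[ℂ] chartRing t l).toRingHom
      ≤ RingHom.ker (aeval (bs_pt (fun i => φ (chartX t l i)) ξ) :
        MvPolynomial (Fin (N + 1)) ℂ →ₐ[ℂ] DualNumber ℂ).toRingHom := by
    intro Q hQ
    obtain ⟨d, P, hP, e⟩ := exists_homog l Q
    have h1 : aeval (chartX t l) P = 0 := (e _ _ (chartX_self h0)).trans hQ
    have h2 := coe_aeval_homog (t := t) (l := l) hP
    rw [h1, eq_comm, ZeroMemClass.coe_zero, div_eq_zero_iff, or_iff_left (pow_ne_zero _ h0)] at h2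
    show aeval (bs_pt (fun i => φ (chartX t l i)) ξ) Q = 0
    rw [← e _ (bs_pt (fun i => φ (chartX t l i)) ξ) (TrivSqZeroExt.ext (chart_pt_self h0 φ) hl)]
    refine TrivSqZeroExt.ext ((bs_fst _ _ P).trans ?_) ((bs_dual _ _ P).trans
      (hξ _ ⟨d, P, hP, h2, rfl⟩))
    rw [← map_aeval_chart, h1, map_zero]
    rfl
  have hΨ := AlgHom.liftOfSurjective_apply _ chart_surj _ hk
  generalize AlgHom.liftOfSurjective _ chart_surj _ hk = Ψ at hΨ
  have h1 : (TrivSqZeroExt.fstHom ℂ ℂ ℂ).comp Ψ = φ := AlgHom.ext fun a => by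
    obtain ⟨P, rfl⟩ := chart_surj a
    rw [AlgHom.comp_apply, hΨ, bs_fst, map_aeval_chart]
  exact ⟨_, h1 ▸ bs_comp bs_snd Ψ, fun P => by rw [hΨ, bs_dual]⟩

theorem bs_rank {M m : ℕ} (G : Set (Fin M → ℂ)) (a : Fin m → Fin M → ℂ)
    (h : ∀ ξ : Fin M → ℂ, (∀ g ∈ G, ∑ j, ξ j * g j = 0) → (∀ i, ∑ j, ξ j * a i j = 0) → ξ = 0) :
    M ≤ m + Module.finrank ℂ (Submodule.span ℂ G) := by
  have h1 : Submodule.span ℂ (range a) ⊔ Submodule.span ℂ G = ⊤ := by
    by_contra h1
    obtain ⟨f, hf, hle⟩ := Submodule.exists_le_ker_of_lt_top _ (lt_top_iff_ne_top.2 h1)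
    have h2 : ∀ g, f g = ∑ j, f (fun i => if j = i then 1 else 0) * g j := fun g => by
      rw [LinearMap.pi_apply_eq_sum_univ]
      exact Finset.sum_congr rfl fun j _ => mul_comm _ _
    have h3 := h (fun j => f fun i => if j = i then 1 else 0)
      (fun g hg => (h2 g).symm.trans (hle (Submodule.mem_sup_right (Submodule.subset_span hg))))
      fun i => (h2 _).symm.trans (hle (Submodule.mem_sup_left (Submodule.subset_span ⟨i, rfl⟩)))
    refine hf (LinearMap.ext fun g => (h2 g).trans (Finset.sum_eq_zero fun j _ => ?_))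
    rw [congrFun h3 j, Pi.zero_apply, zero_mul]
  have h2 := Submodule.finrank_add_le_finrank_add_finrank (Submodule.span ℂ (range a))
    (Submodule.span ℂ G)
  have h3 : Module.finrank ℂ (Submodule.span ℂ (range a)) ≤ m := by
    simpa [Set.finrank] using finrank_range_le_card (R := ℂ) a
  rw [h1, finrank_top, Module.finrank_fin_fun] at h2
  omega

theorem grad_rank (ht : IsFunctionField t) {n : ℕ} (hs : IsSmoothOfDim t n) (hv : OnX t v)
    {w : Fin (N' + 1) → ℂ} (hw : OnX s w) {k : Fin (N' + 1)} (hk : w k = 1)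
    (h : locRing t v = locRing s w) :
    N' ≤ n + Module.finrank ℂ (Submodule.span ℂ (gradSet s w)) := by
  obtain ⟨l, hl⟩ := hv.exists_ne
  have hk0 : w k ≠ 0 := by rw [hk]; exact one_ne_zero
  obtain ⟨φ, hφ⟩ := exists_chart_pt hv hl
  obtain ⟨ψ, hψ⟩ := exists_chart_pt hw hk0
  have hψw : (fun i => ψ (chartX s k i)) = w := funext fun i => by rw [hψ, hk, div_one]
  obtain ⟨Ω, _, _, _, _, _, Y, -, hd, -, z, hz⟩ := exists_chart ht hs (hv.t_ne hl) φ (g := 1)
    (by rw [map_one]; exact one_ne_zero)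
  have hh : φ Y.h ≠ 0 := hz ▸ Y.ev_h z
  generalize Y.x ∘ Y.σ = y at hd
  obtain ⟨ρ, hρ, hρu⟩ := exists_res hv hl hφ
  obtain ⟨ρ', hρ', -⟩ := exists_res hw hk0 hψ
  have e1 : ρ'.comp (Subalgebra.inclusion h.le) = ρ := res_unique hρu
  have hy : ∀ j, (y j : K) ∈ locRing s w := fun j => h.le (chart_le_locRing hv hl (y j).2)
  choose b c hc hbc using fun j => (mem_locRing (hw.t_ne hk0) hk0 hψ).1 (hy j)
  choose B hB using fun j => chart_surj (b j)
  choose C hC using fun j => chart_surj (c j)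
  have key := bs_rank (gradSet s w) (Fin.cons (Pi.single k 1) fun j i =>
    eval w (pderiv i (B j)) - ρ' ⟨y j, hy j⟩ * eval w (pderiv i (C j)) :
      Fin (n + 1) → Fin (N' + 1) → ℂ) fun ξ h1 h2 => ?_
  · omega
  have h3 : ξ k = 0 := by simpa [Pi.single_apply] using h2 0
  obtain ⟨δ, hδ, hδe⟩ := tangent_der (hw.t_ne hk0) ψ h3 (hψw.symm ▸ h1)
  rw [hψw] at hδe
  obtain ⟨δ', hδ', hδe'⟩ := exists_der hw hk0 hψ hρ' hδ
  have h4 : ∀ j, δ' ⟨y j, hy j⟩ = 0 := fun j => by
    have h5 := hδ'.mul ⟨y j, hy j⟩ ⟨c j, chart_le_locRing hw hk0 (c j).2⟩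
    rw [show (⟨y j, hy j⟩ * ⟨c j, chart_le_locRing hw hk0 (c j).2⟩ : locRing s w) =
      ⟨b j, chart_le_locRing hw hk0 (b j).2⟩ from Subtype.ext (hbc j), hδe', hδe', hρ',
      smul_eq_mul, smul_eq_mul] at h5
    have h6 := h2 j.succ
    simp only [Fin.cons_succ, mul_sub, Finset.sum_sub_distrib, mul_left_comm _ (ρ' _),
      ← Finset.mul_sum, ← hδe, hB, hC] at h6
    refine (mul_eq_zero.1 ?_).resolve_left (hc j)
    linear_combination h6 - h5
  have h5 := bs_comp hδ' (Subalgebra.inclusion h.le)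
  rw [e1] at h5
  have h6 : ∀ a : locRing t v, δ' (Subalgebra.inclusion h.le a) = 0 := by
    refine der_eq_zero hv hl hφ hρ h5 fun a => ?_
    obtain ⟨r, hr⟩ := hd a
    have h7 := hr _ _ _ _ (bs_comp h5 (Subalgebra.inclusion (chart_le_locRing hv hl)))
    exact (mul_eq_zero.1 (h7.trans (Finset.sum_eq_zero fun j _ =>
      smul_eq_zero_of_right _ (h4 j)))).resolve_left fun e => hh ((hρ _).symm.trans e)
  funext i
  have h7 := hδe (X i)
  rw [aeval_X, ← hδe'] at h7
  have h8 := (h6 ⟨_, h.ge (chart_le_locRing hw hk0 (chartX s k i).2)⟩).symm.trans h7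
  simpa [pderiv_X, Pi.single_apply, apply_ite] using h8.symm

theorem smooth_transfer (ht : IsFunctionField t) {n : ℕ} (hs : IsSmoothOfDim t n)
    (h : SameVariety t s) : IsSmoothOfDim s n := by
  refine ⟨hs.1, fun w hw => ?_⟩
  obtain ⟨v, hv, e⟩ := h.2.2 w hw
  obtain ⟨k, hk⟩ := hw.exists_ne
  obtain ⟨ψ, hψ⟩ := exists_chart_pt hw hk
  have hw' := chart_onX (hw.t_ne hk) ψ
  rw [funext hψ] at hw'
  have h1 := grad_rank ht hs hv hw' (k := k) (div_self hk) (e.trans (locRing_div hk).symm)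
  have h2 : Submodule.span ℂ (gradSet s fun i => w i / w k) ≤ Submodule.span ℂ (gradSet s w) := by
    refine Submodule.span_le.2 ?_
    rintro _ ⟨d, P, hP, h0, rfl⟩
    have : (fun j => eval (fun i => w i / w k) (pderiv j P)) =
        (w k ^ (d - 1))⁻¹ • fun j => eval w (pderiv j P) := funext fun j => by
      rw [eval_div_homog hP.pderiv, Pi.smul_apply, smul_eq_mul, div_eq_inv_mul]
    rw [this]
    exact Submodule.smul_mem _ _ (Submodule.subset_span ⟨d, P, hP, h0, rfl⟩)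
  have h3 := Submodule.finrank_mono h2
  have h4 := trdeg_le h.1 hs.1
  obtain ⟨f, hf, -, hli⟩ := Submodule.exists_fun_fin_finrank_span_eq ℂ (gradSet s w)
  choose d P hP h0 hfe using hf
  have h5 : N' - n ≤ Module.finrank ℂ (Submodule.span ℂ (gradSet s w)) := by omega
  refine ⟨N' - n, fun i => P (Fin.castLE h5 i), by omega, fun i => ⟨⟨_, hP _⟩, h0 _⟩, ?_⟩
  have h6 := hli.comp _ (Fin.castLE_injective h5)
  rwa [funext hfe] at h6

end Vale.Agent.P271
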